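import Mathlib

/-!
Plain definitions for oriented graphs given by a binary relation on a finite type.
-/

namespace Vale.Agent.Lib.P038

open Finset

variable {V : Type*} [Fintype V] [DecidableEq V]

/-- The first out-neighbourhood of `v`. -/
def N1 (r : V → V → Prop) [DecidableRel r] (v : V) : Finset V :=
  univ.filter fun u => r v u

/-- The second out-neighbourhood of `v`: vertices other than `v` that are not out-neighbours of
`v` and are reached by a directed path of length two from `v`. -/
def N2 (r : V → V → Prop) [DecidableRel r] (v : V) : Finset V :=
  univ.filter fun w => w ≠ v ∧ ¬ r v w ∧ ∃ u, r v u ∧ r u w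

/-- The vertices other than `v` that are joined to `v` by no arc. -/
def nonNbrs (r : V → V → Prop) [DecidableRel r] (v : V) : Finset V :=
  univ.filter fun u => u ≠ v ∧ ¬ r v u ∧ ¬ r u v

end Vale.Agent.Lib.P038
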