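import Mathlib

/-!
Orders maximising a pairwise score: the moving lemma and the existence of a good order.
-/

namespace Vale.Agent.Lib.P038

open Finset

variable {V : Type*}

/-- Pairwise score of a list: the sum of `W a b` over pairs with `a` listed before `b`. -/
def score (W : V → V → ℤ) : List V → ℤ
  | [] => 0
  | a :: l => (l.map (W a)).sum + score W l

/-- Sum of `W a b` over `a` in the first list and `b` in the second. -/
def cross (W : V → V → ℤ) (l₁ l₂ : List V) : ℤ :=
  (l₁.map fun a => (l₂.map (W a)).sum).sum

@[simp] lemma cross_nil_left (W : V → V → ℤ) (l : List V) : cross W [] l = 0 := rfl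

lemma cross_cons_left (W : V → V → ℤ) (a : V) (l₁ l₂ : List V) :
    cross W (a :: l₁) l₂ = (l₂.map (W a)).sum + cross W l₁ l₂ := by
  simp [cross]

lemma cross_cons_right (W : V → V → ℤ) (y : V) (l₁ l₂ : List V) :
    cross W l₁ (y :: l₂) = (l₁.map fun z => W z y).sum + cross W l₁ l₂ := by
  induction l₁ with
  | nil => simp [cross]
  | cons a l ih =>
    rw [cross_cons_left, cross_cons_left, ih]
    simp only [List.map_cons, List.sum_cons]
    ring

lemma score_append (W : V → V → ℤ) (l₁ l₂ : List V) :
    score W (l₁ ++ l₂) = score W l₁ + score W l₂ + cross W l₁ l₂ := by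
  induction l₁ with
  | nil => simp [score]
  | cons a l ih =>
    simp only [List.cons_append, score, ih, cross_cons_left, List.map_append, List.sum_append]
    ring

lemma sum_map_perm (f : V → ℤ) {l l' : List V} (h : l.Perm l') :
    (l.map f).sum = (l'.map f).sum :=
  (h.map f).sum_eq

lemma sum_map_sub (f g : V → ℤ) (J : List V) :
    (J.map fun z => f z - g z).sum = (J.map f).sum - (J.map g).sum := by
  induction J with
  | nil => simp
  | cons b l ih =>
    simp only [List.map_cons, List.sum_cons, ih]
    ring

/-- Moving `y` to the left over `J`. -/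
lemma score_move (W : V → V → ℤ) (A J C : List V) (y : V) :
    score W (A ++ y :: (J ++ C)) - score W (A ++ (J ++ y :: C))
      = (J.map fun z => W y z - W z y).sum := by
  induction A with
  | nil =>
    simp only [List.nil_append]
    have h1 : score W (y :: (J ++ C)) = (J.map (W y)).sum + (C.map (W y)).sum
        + (score W J + score W C + cross W J C) := by
      simp only [score, score_append, List.map_append, List.sum_append]
    have h2 : score W (J ++ y :: C) = score W J + ((C.map (W y)).sum + score W C)
        + ((J.map fun z => W z y).sum + cross W J C) := by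
      rw [score_append, cross_cons_right]
      simp only [score]
    rw [h1, h2, sum_map_sub (W y) (fun z => W z y) J]
    ring
  | cons a l ih =>
    simp only [List.cons_append, score]
    have hp : (l ++ y :: (J ++ C)).Perm (l ++ (J ++ y :: C)) := by
      apply List.Perm.append_left
      exact List.perm_middle.symm
    rw [sum_map_perm (W a) hp]
    linarith

/-- In a skew weight, the move changes the score by minus twice the sum of `W z y`. -/
lemma score_move_skew (W : V → V → ℤ) (hW : ∀ a b, W a b = - W b a) (A J C : List V) (y : V) :
    score W (A ++ y :: (J ++ C)) - score W (A ++ (J ++ y :: C))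
      = - 2 * (J.map fun z => W z y).sum := by
  rw [score_move]
  induction J with
  | nil => simp
  | cons b l ih =>
    simp only [List.map_cons, List.sum_cons, ih, hW y b]
    ring

/-- Counting pairs whose later element satisfies `P`. -/
def pot (P : V → Prop) [DecidablePred P] : V → V → ℤ := fun _ b => if P b then 1 else 0

lemma pot_nonneg_aux (P : V → Prop) [DecidablePred P] (J : List V) (y : V) (hy : P y)
    (hJ : ∀ z ∈ J, ¬ P z) :
    (J.map fun z => pot P y z - pot P z y).sum = - (J.length : ℤ) := by
  induction J with
  | nil => simp
  | cons b l ih =>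
    have hb : ¬ P b := hJ b (by simp)
    have := ih (fun z hz => hJ z (by simp [hz]))
    rw [List.map_cons, List.sum_cons, this]
    simp only [pot, if_neg hb, if_pos hy, List.length_cons]
    push_cast
    ring

/-- Good orders: a list `L` of all vertices but `f`, ending up with feedback properties. -/
theorem exists_good_order {V : Type*} [Fintype V] [DecidableEq V] [Nonempty V]
    (W : V → V → ℤ) (hW : ∀ a b, W a b = - W b a)
    (B : V → V → Prop) [∀ f, DecidablePred (B f)] :
    ∃ (f : V) (L : List V), L.Nodup ∧ (∀ v, v ∈ L ↔ v ≠ f) ∧
      (∀ A I, L = A ++ I → 0 ≤ (I.map fun z => W z f).sum) ∧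
      (∀ A I e C, L = A ++ (I ++ e :: C) → B f e → I ≠ [] → (∀ z ∈ I, ¬ B f z) →
        1 ≤ (I.map fun z => W z e).sum) := by
  classical
  -- global maximiser
  set U : List V := (Finset.univ : Finset V).toList with hU
  have hmem : U ∈ U.permutations.toFinset := by
    simp [List.mem_permutations]
  obtain ⟨L0, hL0, hmax⟩ := Finset.exists_max_image _ (score W) ⟨U, hmem⟩
  have hL0perm : L0.Perm U := by simpa [List.mem_permutations] using hL0
  have hmax' : ∀ M : List V, M.Perm U → score W M ≤ score W L0 := by
    intro M hM
    apply hmax
    simpa [List.mem_permutations] using hM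
  have hU_ne : U ≠ [] := by
    intro h
    obtain ⟨v⟩ := ‹Nonempty V›
    have : v ∈ U := by simp [hU]
    simp [h] at this
  have hL0_ne : L0 ≠ [] := by
    intro h
    rw [h] at hL0perm
    exact hU_ne (List.Perm.nil_eq hL0perm).symm
  obtain ⟨L1, f, hL1⟩ : ∃ L1 f, L0 = L1 ++ [f] := by
    rcases List.eq_nil_or_concat L0 with h | ⟨L1, f, h⟩
    · exact absurd h hL0_ne
    · exact ⟨L1, f, by simpa using h⟩
  -- second stage: among lists with the same score minimise the count of later elements in `B f`
  have hperm2 : ∀ M : List V, M.Perm L1 → (M ++ [f]).Perm U := by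
    intro M hM
    have : (M ++ [f]).Perm (L1 ++ [f]) := hM.append_right _
    rw [hL1] at hL0perm
    exact this.trans hL0perm
  let S : Finset (List V) := L1.permutations.toFinset.filter
    (fun M => score W (M ++ [f]) = score W L0)
  have hS : L1 ∈ S := by
    simp [S, List.mem_permutations, hL1]
  obtain ⟨L, hLS, hmin⟩ := Finset.exists_min_image S (score (pot (B f))) ⟨L1, hS⟩
  have hLperm : L.Perm L1 := by
    have := (Finset.mem_filter.mp hLS).1
    simpa [List.mem_permutations] using this
  have hLscore : score W (L ++ [f]) = score W L0 := (Finset.mem_filter.mp hLS).2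
  have hLU : (L ++ [f]).Perm U := hperm2 L hLperm
  have hnd : (L ++ [f]).Nodup := hLU.nodup_iff.mpr (Finset.nodup_toList _)
  have hndL : L.Nodup := (List.nodup_append.mp hnd).1
  have hfL : f ∉ L := by
    intro hf
    have := (List.nodup_append.mp hnd).2.2
    exact (this f hf f (by simp)) rfl
  refine ⟨f, L, hndL, ?_, ?_, ?_⟩
  · intro v
    have hv : v ∈ L ++ [f] := by
      have : v ∈ U := by simp [hU]
      exact hLU.symm.subset this
    constructor
    · intro hvL hvf
      exact hfL (hvf ▸ hvL)
    · intro hvf
      rcases List.mem_append.mp hv with h | h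
      · exact h
      · simp at h
        exact absurd h hvf
  · intro A I hL
    -- move `f` left over `I`
    have hperm : (A ++ f :: (I ++ [])).Perm U := by
      have h1 : (A ++ f :: (I ++ [])).Perm (A ++ (I ++ [f])) := by
        apply List.Perm.append_left
        rw [List.append_nil]
        exact (List.perm_append_singleton f I).symm
      have h2 : A ++ (I ++ [f]) = L ++ [f] := by rw [hL]; simp
      rw [h2] at h1
      exact h1.trans hLU
    have h3 := hmax' _ hperm
    have h4 := score_move_skew W hW A I [] f
    have h5 : A ++ (I ++ [f]) = L ++ [f] := by rw [hL]; simp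
    rw [h5, hLscore] at h4
    linarith
  · intro A I e C hL he hI hIB
    -- move `e` left over `I`
    have hperm1 : (A ++ e :: (I ++ C)).Perm L := by
      rw [hL]
      apply List.Perm.append_left
      exact List.perm_middle.symm
    have hperm : (A ++ e :: (I ++ C) ++ [f]).Perm U := hperm2 _ (hperm1.trans hLperm)
    have h3 := hmax' _ hperm
    have h4 := score_move_skew W hW A I (C ++ [f]) e
    have h5 : A ++ e :: (I ++ (C ++ [f])) = A ++ e :: (I ++ C) ++ [f] := by simp
    have h6 : A ++ (I ++ e :: (C ++ [f])) = L ++ [f] := by rw [hL]; simp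
    rw [h5, h6, hLscore] at h4
    have hge : 0 ≤ (I.map fun z => W z e).sum := by linarith
    by_contra hlt
    have hzero : (I.map fun z => W z e).sum = 0 := by omega
    have hMS : (A ++ e :: (I ++ C)) ∈ S := by
      simp only [S, Finset.mem_filter, List.mem_toFinset, List.mem_permutations]
      refine ⟨hperm1.trans hLperm, ?_⟩
      rw [hzero] at h4
      linarith
    have h7 := hmin _ hMS
    have h8 := score_move (pot (B f)) A I C e
    rw [pot_nonneg_aux (B f) I e he hIB, ← hL] at h8
    have hlen : 0 < I.length := List.length_pos_of_ne_nil hI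
    have hlen' : (0 : ℤ) < I.length := by exact_mod_cast hlen
    linarith

/-- Summing over intervals. -/
theorem interval_sum {V : Type*} (φ : V → ℤ) (B : V → Prop) (hφ : ∀ b, B b → φ b ≤ 0)
    (L : List V)
    (H1 : ∀ A I e C, L = A ++ (I ++ e :: C) → B e → (∀ z ∈ I, ¬ B z) → (I.map φ).sum ≤ 0)
    (H2 : ∀ A I, L = A ++ I → (∀ z ∈ I, ¬ B z) → (I.map φ).sum ≤ 0) :
    (L.map φ).sum ≤ 0 := by
  classical
  have key : ∀ (p I r : List V), L = p ++ (I ++ r) → (∀ z ∈ I, ¬ B z) →
      (r = [] ∨ ∃ e C, r = e :: C ∧ B e) → ((p ++ I).map φ).sum ≤ 0 := by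
    intro p
    induction p using List.reverseRecOn with
    | nil =>
      intro I r hL hI hr
      simp only [List.nil_append] at hL ⊢
      rcases hr with rfl | ⟨e, C, rfl, he⟩
      · exact H2 [] I (by simpa using hL) hI
      · exact H1 [] I e C (by simpa using hL) he hI
    | append_singleton p z ih =>
      intro I r hL hI hr
      by_cases hz : B z
      · have h1 : (I.map φ).sum ≤ 0 := by
          rcases hr with rfl | ⟨e, C, rfl, he⟩
          · exact H2 (p ++ [z]) I (by simpa using hL) hI
          · exact H1 (p ++ [z]) I e C hL he hI
        have h2 : ((p ++ []).map φ).sum ≤ 0 :=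
          ih [] (z :: (I ++ r)) (by simpa using hL) (by simp) (Or.inr ⟨z, I ++ r, rfl, hz⟩)
        have h3 := hφ z hz
        simp only [List.append_nil] at h2
        simp only [List.map_append, List.sum_append, List.map_cons, List.sum_cons,
          List.map_nil, List.sum_nil, add_zero] at h2 ⊢
        linarith
      · have h2 := ih (z :: I) r (by simpa using hL)
          (by
            intro x hx
            rcases List.mem_cons.mp hx with rfl | h
            · exact hz
            · exact hI x h) hr
        simpa using h2
  have := key L [] [] (by simp) (by simp) (Or.inl rfl)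
  simpa using this

end Vale.Agent.Lib.P038
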