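import Mathlib
import Vale.Agent.Lib.P038.Defs
import Vale.Agent.Lib.P038.Order

/-!
The additive bound for oriented graphs in which every vertex misses few others.
-/

namespace Vale.Agent.Lib.P038

open Finset

open scoped Classical in
/-- `y` is at distance more than two from `f`. -/
def InB {V : Type*} (r : V → V → Prop) (f y : V) : Prop :=
  y ≠ f ∧ ¬ r f y ∧ ¬ ∃ m, r f m ∧ r m y

/-- Orienting `a` towards `b` would create a new path of length two from some vertex. -/
def Hurts {V : Type*} (r : V → V → Prop) (a b : V) : Prop :=
  ∃ f, r f a ∧ InB r f b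

open scoped Classical in
/-- The skew weight: arcs count one, pairs without arc are oriented so as to hurt nobody when this
is possible, and are left neutral otherwise. -/
noncomputable def wt {V : Type*} (r : V → V → Prop) (a b : V) : ℤ :=
  if r a b then 1 else if r b a then -1 else
    if Hurts r a b ∧ Hurts r b a then 0 else if Hurts r a b then -1 else if Hurts r b a then 1 else 0

lemma wt_skew {V : Type*} (r : V → V → Prop) (hasym : ∀ a b, r a b → ¬ r b a) (a b : V) :
    wt r a b = - wt r b a := by
  classical
  unfold wt
  by_cases h1 : r a b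
  · have h2 := hasym a b h1
    simp [h1, h2]
  · by_cases h2 : r b a
    · simp [h1, h2]
    · simp only [h1, h2, if_false]
      by_cases h3 : Hurts r a b <;> by_cases h4 : Hurts r b a <;> simp [h3, h4]

lemma wt_le_one {V : Type*} (r : V → V → Prop) (a b : V) : wt r a b ≤ 1 := by
  classical
  unfold wt
  split_ifs <;> norm_num

/-- A pair with no arc in which the second vertex can also be hurt by the opposite orientation. -/
def BadTo {V : Type*} (r : V → V → Prop) (e z : V) : Prop :=
  ¬ r z e ∧ ¬ r e z ∧ Hurts r e z

lemma wt_out_le {V : Type*} (r : V → V → Prop) {f z e : V} (hz : r f z) (he : InB r f e) :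
    wt r z e ≤ -1 + (by classical exact if BadTo r e z then 1 else 0) := by
  classical
  have h1 : ¬ r z e := fun h => he.2.2 ⟨z, hz, h⟩
  have h4 : Hurts r z e := ⟨f, hz, he⟩
  unfold wt
  simp only [h1, if_false]
  by_cases h2 : r e z
  · have : ¬ BadTo r e z := fun h => h.2.1 h2
    simp [h2, this]
  · by_cases h3 : Hurts r e z
    · have : BadTo r e z := ⟨h1, h2, h3⟩
      simp [h2, h3, h4, this]
    · have : ¬ BadTo r e z := fun h => h3 h.2.2
      simp [h2, h3, h4, this]

lemma wt_in_feed {V : Type*} (r : V → V → Prop) (hasym : ∀ a b, r a b → ¬ r b a) {f z : V}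
    (hz : r f z) : wt r z f = -1 := by
  classical
  have h1 := hasym f z hz
  unfold wt
  simp [h1, hz]

variable {V : Type*} [Fintype V] [DecidableEq V]

open scoped Classical in
/-- Out-neighbours of `f` that form a bad pair with some vertex far from `f`. -/
noncomputable def critical (r : V → V → Prop) (f : V) : Finset V :=
  univ.filter fun x => r f x ∧ ∃ y, InB r f y ∧ BadTo r y x

lemma critical_card_le (r : V → V → Prop) [DecidableRel r]
    (k : ℕ) (hk : ∀ v, (nonNbrs r v).card ≤ k) (f : V) :
    (critical r f).card ≤ k * k := by
  classical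
  -- witnesses
  have hwit : ∀ x ∈ critical r f, ∃ g ∈ nonNbrs r f, ∃ y, InB r f y ∧ r g y ∧ InB r g x ∧
      ¬ r x y ∧ ¬ r y x := by
    intro x hx
    simp only [critical, mem_filter, mem_univ, true_and] at hx
    obtain ⟨hfx, y, hy, hxy, hyx, g, hgy, hgx⟩ := hx
    refine ⟨g, ?_, y, hy, hgy, hgx, hxy, hyx⟩
    simp only [nonNbrs, mem_filter, mem_univ, true_and]
    refine ⟨?_, ?_, ?_⟩
    · rintro rfl
      exact hy.2.1 hgy
    · intro hfg
      exact hy.2.2 ⟨g, hfg, hgy⟩
    · intro hgf
      exact hgx.2.2 ⟨f, hgf, hfx⟩
  let T : V → Finset V := fun g =>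
    (critical r f).filter fun x => ∃ y, InB r f y ∧ r g y ∧ InB r g x ∧ ¬ r x y ∧ ¬ r y x
  have hsub : critical r f ⊆ (nonNbrs r f).biUnion T := by
    intro x hx
    obtain ⟨g, hg, y, hy⟩ := hwit x hx
    simp only [mem_biUnion]
    refine ⟨g, hg, ?_⟩
    simp only [T, mem_filter]
    exact ⟨hx, y, hy⟩
  have hT : ∀ g ∈ nonNbrs r f, (T g).card ≤ k := by
    intro g _
    by_cases hne : (T g).Nonempty
    · obtain ⟨x0, hx0⟩ := hne
      simp only [T, mem_filter] at hx0
      obtain ⟨_, y0, hy0, hgy0, _, _, _⟩ := hx0
      refine le_trans ?_ (hk y0)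
      apply card_le_card
      intro x hx
      simp only [T, mem_filter] at hx
      obtain ⟨hxc, y, _, _, hgx, _, _⟩ := hx
      simp only [critical, mem_filter, mem_univ, true_and] at hxc
      simp only [nonNbrs, mem_filter, mem_univ, true_and]
      refine ⟨?_, ?_, ?_⟩
      · rintro rfl
        exact hy0.2.1 hxc.1
      · intro h
        exact hgx.2.2 ⟨y0, hgy0, h⟩
      · intro h
        exact hy0.2.2 ⟨x, hxc.1, h⟩
    · rw [Finset.not_nonempty_iff_eq_empty] at hne
      simp [hne]
  calc (critical r f).card ≤ ((nonNbrs r f).biUnion T).card := card_le_card hsub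
    _ ≤ ∑ g ∈ nonNbrs r f, (T g).card := card_biUnion_le
    _ ≤ ∑ _g ∈ nonNbrs r f, k := sum_le_sum hT
    _ = (nonNbrs r f).card * k := by simp
    _ ≤ k * k := Nat.mul_le_mul_right k (hk f)

omit [Fintype V] in
/-- List sums of an indicator over a duplicate-free list. -/
lemma list_indicator_sum (P : V → Prop) [DecidablePred P] (I : List V) (hI : I.Nodup) :
    (I.map fun z => (if P z then (1 : ℤ) else 0)).sum = ((I.toFinset).filter P).card := by
  rw [← List.sum_toFinset _ hI, Finset.sum_boole]

lemma sum_map_le {α : Type*} (f g : α → ℤ) (I : List α) (h : ∀ z ∈ I, f z ≤ g z) :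
    (I.map f).sum ≤ (I.map g).sum := by
  induction I with
  | nil => simp
  | cons a l ih =>
    simp only [List.map_cons, List.sum_cons]
    have h1 := h a (by simp)
    have h2 := ih (fun z hz => h z (by simp [hz]))
    linarith

theorem additive_core [Nonempty V] (r : V → V → Prop) [DecidableRel r]
    (hasym : ∀ a b, r a b → ¬ r b a) (k : ℕ) (hk1 : 1 ≤ k)
    (hk : ∀ v, (nonNbrs r v).card ≤ k) :
    ∃ v, (N1 r v).card ≤ (N2 r v).card + k * (k - 1) := by
  classical
  obtain ⟨f, L, hnd, hmem, hfinal, hstep⟩ :=
    exists_good_order (wt r) (wt_skew r hasym) (fun f y => InB r f y)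
  refine ⟨f, ?_⟩
  let iN : V → ℤ := fun z => if r f z then 1 else 0
  let iG : V → ℤ := fun z => if z ≠ f ∧ ¬ r f z ∧ ∃ u, r f u ∧ r u z then 1 else 0
  let iS : V → ℤ := fun z => if z ∈ critical r f then 1 else 0
  have hKz : (1 : ℤ) ≤ k := by exact_mod_cast hk1
  let φ : V → ℤ := fun z => k * iN z - k * iG z - (k - 1) * iS z
  have hφsum : ∀ I : List V, (I.map φ).sum
      = k * (I.map iN).sum - k * (I.map iG).sum - (k - 1) * (I.map iS).sum := by
    intro I
    induction I with
    | nil => simp
    | cons a l ih =>
      simp only [List.map_cons, List.sum_cons, ih]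
      simp only [φ]
      ring
  have hiS_nonneg : ∀ I : List V, 0 ≤ (I.map iS).sum := by
    intro I
    induction I with
    | nil => simp
    | cons a l ih =>
      simp only [List.map_cons, List.sum_cons]
      have : 0 ≤ iS a := by simp only [iS]; split_ifs <;> norm_num
      linarith
  -- classification of vertices in an interval
  have hclass : ∀ z, z ≠ f → ¬ InB r f z → (r f z ∨ (z ≠ f ∧ ¬ r f z ∧ ∃ u, r f u ∧ r u z)) := by
    intro z hz hB
    by_cases h : r f z
    · exact Or.inl h
    · refine Or.inr ⟨hz, h, ?_⟩
      by_contra h'
      exact hB ⟨hz, h, h'⟩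
  have hsum : (L.map φ).sum ≤ 0 := by
    apply interval_sum φ (InB r f)
    · intro b hb
      have h1 : ¬ r f b := hb.2.1
      have h2 : ¬ (b ≠ f ∧ ¬ r f b ∧ ∃ u, r f u ∧ r u b) := fun h => hb.2.2 h.2.2
      have h3 : b ∉ critical r f := by
        simp only [critical, mem_filter, mem_univ, true_and, not_and]
        intro h
        exact absurd h h1
      have e1 : iN b = 0 := if_neg h1
      have e2 : iG b = 0 := if_neg h2
      have e3 : iS b = 0 := if_neg h3
      simp only [φ, e1, e2, e3]
      simp
    · intro A I e C hL he hIB
      have hInd : I.Nodup := by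
        have h := hnd
        rw [hL] at h
        exact (List.nodup_append.mp (List.nodup_append.mp h).2.1).1
      by_cases hne : I = []
      · simp [hne]
      have h1 := hstep A I e C hL he hne hIB
      let iB : V → ℤ := fun z => if BadTo r e z then 1 else 0
      have hpt : ∀ z ∈ I, wt r z e ≤ iG z - iN z + (if r f z then iB z else 0) := by
        intro z hz
        have hzf : z ≠ f := (hmem z).mp (by rw [hL]; simp [hz])
        rcases hclass z hzf (hIB z hz) with h | h
        · have := wt_out_le r h he
          have h2 : ¬ (z ≠ f ∧ ¬ r f z ∧ ∃ u, r f u ∧ r u z) := fun h' => h'.2.1 h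
          have e1 : iN z = 1 := if_pos h
          have e2 : iG z = 0 := if_neg h2
          have e3 : (if r f z then iB z else 0) = iB z := if_pos h
          rw [e1, e2, e3]
          have e4 : wt r z e ≤ -1 + iB z := this
          linarith
        · have := wt_le_one r z e
          have h2 : ¬ r f z := h.2.1
          have e1 : iN z = 0 := if_neg h2
          have e2 : iG z = 1 := if_pos h
          have e3 : (if r f z then iB z else 0) = 0 := if_neg h2
          rw [e1, e2, e3]
          linarith
      have h2 := sum_map_le _ _ I hpt
      let ab : ℤ := (I.map fun z => (if r f z then iB z else 0)).sum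
      have h3 : (I.map fun z => iG z - iN z + (if r f z then iB z else 0)).sum
          = (I.map iG).sum - (I.map iN).sum + ab := by
        have : ∀ J : List V, (J.map fun z => iG z - iN z + (if r f z then iB z else 0)).sum
            = (J.map iG).sum - (J.map iN).sum + (J.map fun z => (if r f z then iB z else 0)).sum := by
          intro J
          induction J with
          | nil => simp
          | cons a l ih =>
            simp only [List.map_cons, List.sum_cons, ih]
            ring
        exact this I
      rw [h3] at h2
      -- `ab` is bounded by the number of non-neighbours of `e`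
      have hab1 : ab ≤ k := by
        have hconv : (I.map fun z => (if r f z then iB z else 0))
            = I.map fun z => (if (r f z ∧ BadTo r e z) then (1 : ℤ) else 0) := by
          apply List.map_congr_left
          intro z _
          by_cases h : r f z <;> by_cases h' : BadTo r e z <;> simp [h, h', iB]
        have : ab = ((I.toFinset).filter fun z => r f z ∧ BadTo r e z).card := by
          show (I.map fun z => (if r f z then iB z else 0)).sum = _
          rw [hconv, list_indicator_sum _ I hInd]
        rw [this]
        have hle : ((I.toFinset).filter fun z => r f z ∧ BadTo r e z).card ≤ (nonNbrs r e).card := by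
          apply card_le_card
          intro z hz
          simp only [mem_filter, List.mem_toFinset] at hz
          simp only [nonNbrs, mem_filter, mem_univ, true_and]
          refine ⟨?_, hz.2.2.2.1, hz.2.2.1⟩
          rintro rfl
          exact he.2.1 hz.2.1
        have := hk e
        exact_mod_cast le_trans hle this
      have hab2 : ab ≤ (I.map iS).sum := by
        apply sum_map_le
        intro z hz
        by_cases hrz : r f z
        · by_cases hbz : BadTo r e z
          · have : z ∈ critical r f := by
              simp only [critical, mem_filter, mem_univ, true_and]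
              exact ⟨hrz, e, he, hbz⟩
            simp [iB, iS, hrz, hbz, this]
          · simp only [iB, hrz, hbz, if_true, if_false]
            simp only [iS]
            split_ifs <;> norm_num
        · simp only [hrz, if_false, iS]
          split_ifs <;> norm_num
      rw [hφsum]
      have hn : (I.map iN).sum - (I.map iG).sum ≤ ab - 1 := by linarith
      have hab0 : 0 ≤ ab := by
        apply le_trans _ (sum_map_le (fun _ => (0 : ℤ)) _ I ?_)
        · simp
        · intro z _
          by_cases hrz : r f z
          · simp only [hrz, if_true, iB]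
            split_ifs <;> norm_num
          · simp [hrz]
      nlinarith [hiS_nonneg I]
    · intro A I hL hIB
      have h1 := hfinal A I hL
      have hpt : ∀ z ∈ I, wt r z f ≤ iG z - iN z := by
        intro z hz
        have hzf : z ≠ f := (hmem z).mp (by rw [hL]; simp [hz])
        rcases hclass z hzf (hIB z hz) with h | h
        · have h2 : ¬ (z ≠ f ∧ ¬ r f z ∧ ∃ u, r f u ∧ r u z) := fun h' => h'.2.1 h
          have e1 : iN z = 1 := if_pos h
          have e2 : iG z = 0 := if_neg h2
          rw [wt_in_feed r hasym h, e1, e2]
          norm_num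
        · have := wt_le_one r z f
          have h2 : ¬ r f z := h.2.1
          have e1 : iN z = 0 := if_neg h2
          have e2 : iG z = 1 := if_pos h
          rw [e1, e2]
          linarith
      have h2 := sum_map_le _ _ I hpt
      have h3 : (I.map fun z => iG z - iN z).sum = (I.map iG).sum - (I.map iN).sum :=
        sum_map_sub iG iN I
      rw [h3] at h2
      rw [hφsum]
      nlinarith [hiS_nonneg I]
  -- convert to cardinalities
  have hLset : L.toFinset = univ.erase f := by
    ext v
    simp [hmem]
  have hcardN : (L.map iN).sum = (N1 r f).card := by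
    simp only [iN]
    rw [list_indicator_sum _ L hnd, hLset]
    have : (univ.erase f).filter (fun z => r f z) = N1 r f := by
      ext v
      simp only [N1, mem_filter, mem_erase, mem_univ, true_and, and_true]
      constructor
      · exact fun h => h.2
      · intro h
        refine ⟨?_, h⟩
        rintro rfl
        exact hasym _ _ h h
    rw [this]
  have hcardG : (L.map iG).sum = (N2 r f).card := by
    simp only [iG]
    rw [list_indicator_sum _ L hnd, hLset]
    have : (univ.erase f).filter (fun z => z ≠ f ∧ ¬ r f z ∧ ∃ u, r f u ∧ r u z) = N2 r f := by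
      ext v
      simp only [N2, mem_filter, mem_erase, mem_univ, true_and, and_true]
      constructor
      · exact fun h => h.2
      · intro h
        exact ⟨h.1, h⟩
    rw [this]
  have hcardS : (L.map iS).sum ≤ (critical r f).card := by
    simp only [iS]
    rw [list_indicator_sum _ L hnd]
    exact_mod_cast card_le_card (fun x hx => (mem_filter.mp hx).2)
  rw [hφsum, hcardN, hcardG] at hsum
  have hSk : ((critical r f).card : ℤ) ≤ k * k := by
    exact_mod_cast critical_card_le r k hk f
  have hk0 : (0 : ℤ) ≤ k - 1 := by linarith
  have hfin : (k : ℤ) * ((N1 r f).card : ℤ) ≤ k * (((N2 r f).card : ℤ) + k * (k - 1)) := by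
    have h5 : ((k : ℤ) - 1) * (L.map iS).sum ≤ ((k : ℤ) - 1) * (k * k) :=
      mul_le_mul_of_nonneg_left (le_trans (by exact_mod_cast hcardS) hSk) hk0
    nlinarith
  have hk00 : (0 : ℤ) < k := by linarith
  have hfin2 : ((N1 r f).card : ℤ) ≤ ((N2 r f).card : ℤ) + k * (k - 1) :=
    le_of_mul_le_mul_left hfin hk00
  have hcast : ((k * (k - 1) : ℕ) : ℤ) = (k : ℤ) * ((k : ℤ) - 1) := by
    rw [Nat.cast_mul, Nat.cast_sub hk1]
    simp
  have : ((N1 r f).card : ℤ) ≤ (((N2 r f).card + k * (k - 1) : ℕ) : ℤ) := by
    rw [Nat.cast_add, hcast]
    exact hfin2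
  exact_mod_cast this

/-- The additive bound: if each vertex misses at most `k` others then some vertex `v` has
`|N1 v| ≤ |N2 v| + k (k - 1)`. -/
theorem additive_bound [Nonempty V] (r : V → V → Prop) [DecidableRel r]
    (hasym : ∀ a b, r a b → ¬ r b a) (k : ℕ)
    (hk : ∀ v, (nonNbrs r v).card ≤ k) :
    ∃ v, (N1 r v).card ≤ (N2 r v).card + k * (k - 1) := by
  rcases Nat.eq_zero_or_pos k with rfl | hpos
  · obtain ⟨v, hv⟩ := additive_core r hasym 1 le_rfl (fun v => le_trans (hk v) (Nat.zero_le 1))
    exact ⟨v, by simpa using hv⟩
  · exact additive_core r hasym k hpos hk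

end Vale.Agent.Lib.P038
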