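import Mathlib

/-!
Orders of maximal rational score and a certificate lemma for the last vertex of such an order.
-/

namespace Vale.Agent.Lib.P038

open Finset

variable {V : Type*}

/-- Pairwise rational score of a list: the sum of `W a b` over pairs with `a` listed before `b`. -/
def qscore (W : V → V → ℚ) : List V → ℚ
  | [] => 0
  | a :: l => (l.map (W a)).sum + qscore W l

/-- Sum of `W a b` over `a` in the first list and `b` in the second. -/
def qcross (W : V → V → ℚ) (l₁ l₂ : List V) : ℚ :=
  (l₁.map fun a => (l₂.map (W a)).sum).sum

lemma qcross_cons_left (W : V → V → ℚ) (a : V) (l₁ l₂ : List V) :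
    qcross W (a :: l₁) l₂ = (l₂.map (W a)).sum + qcross W l₁ l₂ := by
  simp [qcross]

lemma qcross_cons_right (W : V → V → ℚ) (y : V) (l₁ l₂ : List V) :
    qcross W l₁ (y :: l₂) = (l₁.map fun z => W z y).sum + qcross W l₁ l₂ := by
  induction l₁ with
  | nil => simp [qcross]
  | cons a l ih =>
    rw [qcross_cons_left, qcross_cons_left, ih]
    simp only [List.map_cons, List.sum_cons]
    ring

lemma qscore_append (W : V → V → ℚ) (l₁ l₂ : List V) :
    qscore W (l₁ ++ l₂) = qscore W l₁ + qscore W l₂ + qcross W l₁ l₂ := by
  induction l₁ with
  | nil => simp [qscore, qcross]
  | cons a l ih =>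
    simp only [List.cons_append, qscore, ih, qcross_cons_left, List.map_append, List.sum_append]
    ring

lemma qsum_perm (g : V → ℚ) {l l' : List V} (h : l.Perm l') :
    (l.map g).sum = (l'.map g).sum :=
  (h.map g).sum_eq

lemma qcross_perm (W : V → V → ℚ) (A : List V) {l l' : List V} (h : l.Perm l') :
    qcross W A l = qcross W A l' := by
  unfold qcross
  congr 1
  apply List.map_congr_left
  intro a _
  exact qsum_perm (W a) h

lemma filter_split_perm (p : V → Bool) (C : List V) (f : V) :
    (C.filter p ++ f :: C.filter (fun a => !p a)).Perm (C ++ [f]) := by
  have h1 : (C.filter p ++ f :: C.filter (fun a => !p a)).Perm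
      (f :: (C.filter p ++ C.filter (fun a => !p a))) := List.perm_middle
  have h2 : (C.filter p ++ C.filter (fun a => !p a)).Perm C := List.filter_append_perm p C
  exact h1.trans ((h2.cons f).trans (List.perm_append_singleton f C).symm)

/-- The weight used to count flipped pairs: stayers before moved elements. -/
def flipW (W : V → V → ℚ) (p : V → Bool) : V → V → ℚ :=
  fun a x => if p a = false ∧ p x = true then W a x else 0

lemma sum_filter_eq (g : V → ℚ) (p : V → Bool) (C : List V) :
    ((C.filter p).map g).sum = (C.map fun x => if p x = true then g x else 0).sum := by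
  induction C with
  | nil => simp
  | cons a l ih =>
    by_cases h : p a = true
    · simp [h, ih]
    · simp [h, ih]

lemma sum_map_skew (W : V → V → ℚ) (hskew : ∀ a b, W a b = - W b a) (a : V) (l : List V) :
    (l.map fun z => W z a).sum = - (l.map (W a)).sum := by
  induction l with
  | nil => simp
  | cons c l' ih =>
    simp only [List.map_cons, List.sum_cons, ih, hskew c a]
    ring

/-- The change of score when elements marked by `p` and then `f` are pulled to the front of
`C ++ [f]`, all others keeping their order. -/
theorem flip_identity (W : V → V → ℚ) (hskew : ∀ a b, W a b = - W b a) (p : V → Bool) (f : V)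
    (C : List V) :
    qscore W (C ++ [f]) - qscore W (C.filter p ++ f :: C.filter (fun a => !p a))
      = 2 * ((C.map fun a => if p a = true then 0 else W a f).sum + qscore (flipW W p) C) := by
  induction C with
  | nil => simp [qscore]
  | cons a C ih =>
    set S := C.filter p with hS
    set T := C.filter (fun a => !p a) with hT
    by_cases hpa : p a = true
    · have e1 : (a :: C).filter p = a :: S := by simp [hpa, hS]
      have e2 : (a :: C).filter (fun a => !p a) = T := by simp [hpa, hT]
      rw [e1, e2]
      have h1 : qscore W ((a :: C) ++ [f]) = ((C ++ [f]).map (W a)).sum + qscore W (C ++ [f]) := rfl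
      have h2 : qscore W ((a :: S) ++ f :: T)
          = ((S ++ f :: T).map (W a)).sum + qscore W (S ++ f :: T) := rfl
      have h3 : ((S ++ f :: T).map (W a)).sum = ((C ++ [f]).map (W a)).sum :=
        qsum_perm _ (filter_split_perm p C f)
      have h4 : (((a :: C).map fun a => if p a = true then 0 else W a f).sum)
          = (C.map fun a => if p a = true then 0 else W a f).sum := by
        simp [hpa]
      have h5 : qscore (flipW W p) (a :: C) = qscore (flipW W p) C := by
        have : (C.map (flipW W p a)).sum = 0 := by
          apply List.sum_eq_zero
          intro x hx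
          obtain ⟨y, _, rfl⟩ := List.mem_map.mp hx
          simp [flipW, hpa]
        simp [qscore, this]
      rw [h1, h2, h3, h4, h5]
      linarith
    · have hpa' : p a = false := by simpa using hpa
      have e1 : (a :: C).filter p = S := by simp [hpa', hS]
      have e2 : (a :: C).filter (fun a => !p a) = a :: T := by simp [hpa', hT]
      rw [e1, e2]
      have h1 : qscore W ((a :: C) ++ [f]) = ((C ++ [f]).map (W a)).sum + qscore W (C ++ [f]) := rfl
      have h1' : ((C ++ [f]).map (W a)).sum = (C.map (W a)).sum + W a f := by simp
      -- expand the reordered list
      have h2 : qscore W (S ++ f :: a :: T)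
          = qscore W (S ++ f :: T) + (T.map (W a)).sum
            + (S.map fun z => W z a).sum + W f a := by
        have e3 : S ++ f :: a :: T = (S ++ [f]) ++ a :: T := by simp
        have e4 : S ++ f :: T = (S ++ [f]) ++ T := by simp
        have e5 : qscore W (a :: T) = (T.map (W a)).sum + qscore W T := rfl
        have e6 : ((S ++ [f]).map fun z => W z a).sum = (S.map fun z => W z a).sum + W f a := by
          simp
        rw [e3, e4, qscore_append W (S ++ [f]) (a :: T), qscore_append W (S ++ [f]) T,
          qcross_cons_right, e5, e6]
        ring
      have h3 : (C.map (W a)).sum = (S.map (W a)).sum + (T.map (W a)).sum := by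
        have := qsum_perm (W a) (List.filter_append_perm p C)
        rw [List.map_append, List.sum_append] at this
        exact this.symm
      have h4 : (S.map fun z => W z a).sum = - (S.map (W a)).sum := sum_map_skew W hskew a S
      have h5 : (((a :: C).map fun a => if p a = true then 0 else W a f).sum)
          = W a f + (C.map fun a => if p a = true then 0 else W a f).sum := by
        simp [hpa']
      have h6 : qscore (flipW W p) (a :: C)
          = (S.map (W a)).sum + qscore (flipW W p) C := by
        have h7 : (C.map (flipW W p a)).sum = (S.map (W a)).sum := by
          rw [hS, sum_filter_eq]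
          congr 1
          apply List.map_congr_left
          intro x _
          simp [flipW, hpa']
        simp [qscore, h7]
      rw [h1, h1', h2, h3, h4, h5, h6]
      have hfa := hskew f a
      rw [hfa]
      linarith

/-- Pulling elements to the front does not improve a maximal order. -/
theorem flip_nonneg (W : V → V → ℚ) (hskew : ∀ a b, W a b = - W b a) (p : V → Bool) (f : V)
    (A C : List V)
    (hmax : ∀ L', L'.Perm (A ++ C ++ [f]) → qscore W L' ≤ qscore W (A ++ C ++ [f])) :
    0 ≤ (C.map fun a => if p a = true then 0 else W a f).sum + qscore (flipW W p) C := by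
  have hperm : (A ++ (C.filter p ++ f :: C.filter (fun a => !p a))).Perm (A ++ C ++ [f]) := by
    rw [List.append_assoc]
    exact (filter_split_perm p C f).append_left A
  have h1 := hmax _ hperm
  have h2 := flip_identity W hskew p f C
  have h3 : qscore W (A ++ C ++ [f])
      = qscore W A + qscore W (C ++ [f]) + qcross W A (C ++ [f]) := by
    rw [List.append_assoc, qscore_append]
  have h4 := qscore_append W A (C.filter p ++ f :: C.filter (fun a => !p a))
  have h5 := qcross_perm W A (filter_split_perm p C f)
  linarith

/-- The certificate lemma. Let `f` be the last vertex of an order of maximal score. Split the other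
vertices into moved ones (`p`) and the rest, and give them integer values `val`, zero on moved ones.
If, for `τ = f` and for each moved `τ`, the excesses of `W a τ + val a` over zero at the vertices
`a` that are not moved are bounded by `e a τ`, with total below one for `f` and at most one for
moved `τ`, then the values of all vertices other than `f` sum to at most zero. -/
theorem cert_bound [DecidableEq V] (W : V → V → ℚ) (hskew : ∀ a b, W a b = - W b a)
    (L₀ : List V) (f : V) (hnd : L₀.Nodup)
    (hmax : ∀ L', L'.Perm (L₀ ++ [f]) → qscore W L' ≤ qscore W (L₀ ++ [f]))
    (p : V → Bool) (val : V → ℤ) (e : V → V → ℚ)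
    (he0 : ∀ a τ, 0 ≤ e a τ)
    (hval : ∀ a, p a = true → val a = 0)
    (hb : ∀ a τ, a ∈ L₀ → p a = false → (τ = f ∨ p τ = true) → W a τ + val a ≤ e a τ)
    (hsum : ∀ x, p x = true → ∑ a ∈ L₀.toFinset, e a x ≤ 1)
    (hsumf : ∑ a ∈ L₀.toFinset, e a f < 1) :
    (L₀.map val).sum ≤ 0 := by
  -- bound of a partial sum of the excesses
  have hpart : ∀ (K : List V) (τ : V), K.Nodup → (∀ a ∈ K, a ∈ L₀) →
      (K.map fun a => e a τ).sum ≤ ∑ a ∈ L₀.toFinset, e a τ := by
    intro K τ hK hsub
    rw [← List.sum_toFinset _ hK]
    apply Finset.sum_le_sum_of_subset_of_nonneg
    · intro a ha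
      exact List.mem_toFinset.mpr (hsub a (List.mem_toFinset.mp ha))
    · intro a _ _
      exact he0 a τ
  -- the pointwise comparison summed over a list
  have hcomp : ∀ (K : List V) (τ : V), (∀ a ∈ K, a ∈ L₀) → (τ = f ∨ p τ = true) →
      (K.map fun a => if p a = true then 0 else W a τ).sum
        ≤ - (((K.map val).sum : ℤ) : ℚ) + (K.map fun a => e a τ).sum := by
    intro K τ hsub hτ
    induction K with
    | nil => simp
    | cons a l ih =>
      have ih' := ih (fun b hb => hsub b (by simp [hb]))
      simp only [List.map_cons, List.sum_cons]
      rw [Int.cast_add]
      have hmem : a ∈ L₀ := hsub a (by simp)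
      by_cases hpa : p a = true
      · have h0 := hval a hpa
        have h1 := he0 a τ
        simp only [hpa, if_true, h0, Int.cast_zero]
        linarith
      · have hpa' : p a = false := by simpa using hpa
        have h1 := hb a τ hmem hpa' hτ
        simp only [hpa', Bool.false_eq_true, if_false]
        linarith
  -- the main induction on suffixes
  have main : ∀ (n : ℕ) (A C : List V), L₀ = A ++ C → C.length ≤ n → (C.map val).sum ≤ 0 := by
    intro n
    induction n with
    | zero =>
      intro A C _ hC
      have : C = [] := List.length_eq_zero_iff.mp (by omega)
      simp [this]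
    | succ n ih =>
      intro A C hL hC
      by_contra hpos
      have hVal : 1 ≤ (C.map val).sum := by omega
      have hsubC : ∀ a ∈ C, a ∈ L₀ := fun a ha => by rw [hL]; simp [ha]
      have hndC : C.Nodup := by
        have h := hnd
        rw [hL] at h
        exact (List.nodup_append.mp h).2.1
      -- the inner sum is not positive
      have hinner : ∀ (K C₂ : List V), C = K ++ C₂ → qscore (flipW W p) K ≤ 0 := by
        intro K
        induction K using List.reverseRecOn with
        | nil =>
          intro C₂ _
          simp [qscore]
        | append_singleton K x ihK =>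
          intro C₂ hCK
          have h1 := ihK (x :: C₂) (by rw [hCK]; simp)
          rw [qscore_append]
          have h2 : qscore (flipW W p) [x] = 0 := by simp [qscore]
          have h3 : qcross (flipW W p) K [x] = (K.map fun a => flipW W p a x).sum := by
            rw [qcross_cons_right]
            simp [qcross]
          rw [h2, h3]
          by_cases hpx : p x = true
          · have hC₂ : (C₂.map val).sum ≤ 0 := by
              apply ih (A ++ (K ++ [x])) C₂
              · rw [hL, hCK]
                simp
              · have : C.length = K.length + 1 + C₂.length := by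
                  rw [hCK]
                  simp
                  omega
                omega
            have hvx := hval x hpx
            have hCsum : (C.map val).sum = (K.map val).sum + (C₂.map val).sum := by
              rw [hCK]
              simp [hvx]
            have hKval : 1 ≤ (K.map val).sum := by omega
            have hKval' : (1 : ℚ) ≤ (((K.map val).sum : ℤ) : ℚ) := by exact_mod_cast hKval
            have hsubK : ∀ a ∈ K, a ∈ L₀ := fun a ha => hsubC a (by rw [hCK]; simp [ha])
            have hndK : K.Nodup := by
              have h := hndC
              rw [hCK] at h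
              have h' := (List.nodup_append.mp h).1
              exact (List.nodup_append.mp h').1
            have h4 := hcomp K x hsubK (Or.inr hpx)
            have h5 := hpart K x hndK hsubK
            have h6 := hsum x hpx
            have h7 : (K.map fun a => flipW W p a x).sum
                = (K.map fun a => if p a = true then 0 else W a x).sum := by
              congr 1
              apply List.map_congr_left
              intro a _
              by_cases hpa : p a = true
              · simp [flipW, hpa]
              · have hpa' : p a = false := by simpa using hpa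
                simp [flipW, hpa', hpx]
            rw [h7]
            linarith
          · have hpx' : p x = false := by simpa using hpx
            have h7 : (K.map fun a => flipW W p a x).sum = 0 := by
              apply List.sum_eq_zero
              intro y hy
              obtain ⟨a, _, rfl⟩ := List.mem_map.mp hy
              simp [flipW, hpx']
            rw [h7]
            linarith
      have h1 := hinner C [] (by simp)
      have hmax' : ∀ L', L'.Perm (A ++ C ++ [f]) → qscore W L' ≤ qscore W (A ++ C ++ [f]) := by
        rw [← hL]
        exact hmax
      have h2 := flip_nonneg W hskew p f A C hmax'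
      have h3 := hcomp C f hsubC (Or.inl rfl)
      have h4 := hpart C f hndC hsubC
      have hVal' : (1 : ℚ) ≤ (((C.map val).sum : ℤ) : ℚ) := by exact_mod_cast hVal
      linarith
  exact main L₀.length [] L₀ (by simp) le_rfl

/-- Existence of an order of maximal score. -/
theorem exists_max_order {V : Type*} [Fintype V] [DecidableEq V] [Nonempty V]
    (W : V → V → ℚ) :
    ∃ (L₀ : List V) (f : V), L₀.Nodup ∧ (∀ v, v ∈ L₀ ↔ v ≠ f) ∧
      (∀ L', L'.Perm (L₀ ++ [f]) → qscore W L' ≤ qscore W (L₀ ++ [f])) := by
  classical
  set U : List V := (Finset.univ : Finset V).toList with hU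
  have hmem : U ∈ U.permutations.toFinset := by
    simp [List.mem_permutations]
  obtain ⟨L, hL, hmax⟩ := Finset.exists_max_image _ (qscore W) ⟨U, hmem⟩
  have hLperm : L.Perm U := by simpa [List.mem_permutations] using hL
  have hU_ne : U ≠ [] := by
    intro h
    obtain ⟨v⟩ := ‹Nonempty V›
    have : v ∈ U := by simp [hU]
    simp [h] at this
  have hL_ne : L ≠ [] := by
    intro h
    rw [h] at hLperm
    exact hU_ne (List.Perm.nil_eq hLperm).symm
  obtain ⟨L₀, f, hL₀⟩ : ∃ L₀ f, L = L₀ ++ [f] := by
    rcases List.eq_nil_or_concat L with h | ⟨L₁, g, h⟩
    · exact absurd h hL_ne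
    · exact ⟨L₁, g, by simpa using h⟩
  have hnd : L.Nodup := hLperm.nodup_iff.mpr (Finset.nodup_toList _)
  rw [hL₀] at hnd
  have hnd₀ : L₀.Nodup := (List.nodup_append.mp hnd).1
  have hfL : f ∉ L₀ := by
    intro hf
    have := (List.nodup_append.mp hnd).2.2
    exact (this f hf f (by simp)) rfl
  refine ⟨L₀, f, hnd₀, ?_, ?_⟩
  · intro v
    have hv : v ∈ L := by
      have : v ∈ U := by simp [hU]
      exact hLperm.symm.subset this
    rw [hL₀] at hv
    constructor
    · intro hvL hvf
      exact hfL (hvf ▸ hvL)
    · intro hvf
      rcases List.mem_append.mp hv with h | h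
      · exact h
      · simp at h
        exact absurd h hvf
  · intro L' hL'
    rw [← hL₀]
    apply hmax
    rw [← hL₀] at hL'
    simpa [List.mem_permutations] using hL'.trans hLperm

end Vale.Agent.Lib.P038
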