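import Mathlib
import Vale.Agent.Lib.P038.Defs
import Vale.Agent.Lib.P038.Order
import Vale.Agent.Lib.P038.Additive

/-!
An exact criterion and a sharper error term: the error at a vertex `f` is the sum, over vertices `y`
far from `f`, of the excess over one of the number of out-neighbours of `f` that form a bad pair
with `y`.
-/

namespace Vale.Agent.Lib.P038

open Finset

variable {V : Type*} [Fintype V] [DecidableEq V]

/-- A version of `interval_sum` with an allowance `ex e` for the interval before a marked `e`. -/
theorem interval_sum_excess {V : Type*} (φ : V → ℤ) (B : V → Prop) [DecidablePred B]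
    (ex : V → ℤ) (hφ : ∀ b, B b → φ b ≤ 0) (L : List V)
    (H1 : ∀ A I e C, L = A ++ (I ++ e :: C) → B e → (∀ z ∈ I, ¬ B z) → (I.map φ).sum ≤ ex e)
    (H2 : ∀ A I, L = A ++ I → (∀ z ∈ I, ¬ B z) → (I.map φ).sum ≤ 0) :
    (L.map φ).sum ≤ (L.map fun z => if B z then ex z else 0).sum := by
  classical
  let ex' : V → ℤ := fun z => if B z then ex z else 0
  have key : ∀ (p I r : List V) (c : ℤ), L = p ++ (I ++ r) → (∀ z ∈ I, ¬ B z) →
      ((r = [] ∧ c = 0) ∨ ∃ e C, r = e :: C ∧ B e ∧ c = ex e) →
      ((p ++ I).map φ).sum ≤ (p.map ex').sum + c := by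
    intro p
    induction p using List.reverseRecOn with
    | nil =>
      intro I r c hL hI hr
      simp only [List.nil_append] at hL ⊢
      rcases hr with ⟨rfl, rfl⟩ | ⟨e, C, rfl, he, rfl⟩
      · simpa using H2 [] I (by simpa using hL) hI
      · simpa using H1 [] I e C (by simpa using hL) he hI
    | append_singleton p z ih =>
      intro I r c hL hI hr
      by_cases hz : B z
      · have h1 : (I.map φ).sum ≤ c := by
          rcases hr with ⟨rfl, rfl⟩ | ⟨e, C, rfl, he, rfl⟩
          · exact H2 (p ++ [z]) I (by simpa using hL) hI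
          · exact H1 (p ++ [z]) I e C hL he hI
        have h2 := ih [] (z :: (I ++ r)) (ex z) (by simpa using hL) (by simp)
          (Or.inr ⟨z, I ++ r, rfl, hz, rfl⟩)
        have h3 := hφ z hz
        have h4 : ex' z = ex z := if_pos hz
        simp only [List.append_nil] at h2
        simp only [List.map_append, List.sum_append, List.map_cons, List.sum_cons,
          List.map_nil, List.sum_nil, add_zero, h4] at h2 ⊢
        linarith
      · have h2 := ih (z :: I) r c (by simpa using hL)
          (by
            intro x hx
            rcases List.mem_cons.mp hx with rfl | h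
            · exact hz
            · exact hI x h) hr
        have h4 : ex' z = 0 := if_neg hz
        simpa [h4] using h2
  have := key L [] [] 0 (by simp) (by simp) (Or.inl ⟨rfl, rfl⟩)
  simpa using this

/-- The number of out-neighbours of `f` that form a bad pair with `y`. -/
noncomputable def badCount (r : V → V → Prop) (f y : V) : ℕ := by
  classical
  exact (univ.filter fun x => r f x ∧ BadTo r y x).card

/-- The vertices far from `f`: neither `f`, nor out-neighbours of `f`, nor at distance two. -/
noncomputable def far (r : V → V → Prop) (f : V) : Finset V := by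
  classical
  exact univ.filter fun y => InB r f y

/-- The sharper additive bound. -/
theorem excess_bound [Nonempty V] (r : V → V → Prop) [DecidableRel r]
    (hasym : ∀ a b, r a b → ¬ r b a) :
    ∃ f, (N1 r f).card ≤ (N2 r f).card + ∑ y ∈ far r f, (badCount r f y - 1) := by
  classical
  obtain ⟨f, L, hnd, hmem, hfinal, hstep⟩ :=
    exists_good_order (wt r) (wt_skew r hasym) (fun f y => InB r f y)
  refine ⟨f, ?_⟩
  let iN : V → ℤ := fun z => if r f z then 1 else 0
  let iG : V → ℤ := fun z => if z ≠ f ∧ ¬ r f z ∧ ∃ u, r f u ∧ r u z then 1 else 0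
  let φ : V → ℤ := fun z => iN z - iG z
  let ex : V → ℤ := fun y => ((badCount r f y - 1 : ℕ) : ℤ)
  have hclass : ∀ z, z ≠ f → ¬ InB r f z → (r f z ∨ (z ≠ f ∧ ¬ r f z ∧ ∃ u, r f u ∧ r u z)) := by
    intro z hz hB
    by_cases h : r f z
    · exact Or.inl h
    · refine Or.inr ⟨hz, h, ?_⟩
      by_contra h'
      exact hB ⟨hz, h, h'⟩
  have hsum : (L.map φ).sum ≤ (L.map fun z => if InB r f z then ex z else 0).sum := by
    apply interval_sum_excess φ (InB r f) ex
    · intro b hb
      have h1 : ¬ r f b := hb.2.1
      have h2 : ¬ (b ≠ f ∧ ¬ r f b ∧ ∃ u, r f u ∧ r u b) := fun h => hb.2.2 h.2.2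
      have e1 : iN b = 0 := if_neg h1
      have e2 : iG b = 0 := if_neg h2
      simp [φ, e1, e2]
    · intro A I e C hL he hIB
      have hInd : I.Nodup := by
        have h := hnd
        rw [hL] at h
        exact (List.nodup_append.mp (List.nodup_append.mp h).2.1).1
      have hex0 : (0 : ℤ) ≤ ex e := by simp [ex]
      by_cases hne : I = []
      · simpa [hne] using hex0
      have h1 := hstep A I e C hL he hne hIB
      let iB : V → ℤ := fun z => if BadTo r e z then 1 else 0
      have hpt : ∀ z ∈ I, wt r z e ≤ iG z - iN z + (if r f z then iB z else 0) := by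
        intro z hz
        have hzf : z ≠ f := (hmem z).mp (by rw [hL]; simp [hz])
        rcases hclass z hzf (hIB z hz) with h | h
        · have := wt_out_le r h he
          have h2 : ¬ (z ≠ f ∧ ¬ r f z ∧ ∃ u, r f u ∧ r u z) := fun h' => h'.2.1 h
          have e1 : iN z = 1 := if_pos h
          have e2 : iG z = 0 := if_neg h2
          have e3 : (if r f z then iB z else 0) = iB z := if_pos h
          rw [e1, e2, e3]
          have e4 : wt r z e ≤ -1 + iB z := this
          linarith
        · have := wt_le_one r z e
          have h2 : ¬ r f z := h.2.1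
          have e1 : iN z = 0 := if_neg h2
          have e2 : iG z = 1 := if_pos h
          have e3 : (if r f z then iB z else 0) = 0 := if_neg h2
          rw [e1, e2, e3]
          linarith
      have h2 := sum_map_le _ _ I hpt
      let ab : ℤ := (I.map fun z => (if r f z then iB z else 0)).sum
      have h3 : (I.map fun z => iG z - iN z + (if r f z then iB z else 0)).sum
          = (I.map iG).sum - (I.map iN).sum + ab := by
        have : ∀ J : List V, (J.map fun z => iG z - iN z + (if r f z then iB z else 0)).sum
            = (J.map iG).sum - (J.map iN).sum + (J.map fun z => (if r f z then iB z else 0)).sum := by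
          intro J
          induction J with
          | nil => simp
          | cons a l ih =>
            simp only [List.map_cons, List.sum_cons, ih]
            ring
        exact this I
      rw [h3] at h2
      have hab1 : ab ≤ badCount r f e := by
        have hconv : (I.map fun z => (if r f z then iB z else 0))
            = I.map fun z => (if (r f z ∧ BadTo r e z) then (1 : ℤ) else 0) := by
          apply List.map_congr_left
          intro z _
          by_cases h : r f z <;> by_cases h' : BadTo r e z <;> simp [h, h', iB]
        have : ab = ((I.toFinset).filter fun z => r f z ∧ BadTo r e z).card := by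
          show (I.map fun z => (if r f z then iB z else 0)).sum = _
          rw [hconv, list_indicator_sum _ I hInd]
        rw [this]
        have hle : ((I.toFinset).filter fun z => r f z ∧ BadTo r e z).card ≤ badCount r f e := by
          unfold badCount
          apply card_le_card
          intro z hz
          simp only [mem_filter, List.mem_toFinset] at hz
          simp only [mem_filter, mem_univ, true_and]
          exact hz.2
        exact_mod_cast hle
      have hex1 : (badCount r f e : ℤ) - 1 ≤ ex e := by
        simp only [ex]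
        omega
      have hsplit : (I.map φ).sum = (I.map iN).sum - (I.map iG).sum := sum_map_sub iN iG I
      rw [hsplit]
      linarith
    · intro A I hL hIB
      have h1 := hfinal A I hL
      have hpt : ∀ z ∈ I, wt r z f ≤ iG z - iN z := by
        intro z hz
        have hzf : z ≠ f := (hmem z).mp (by rw [hL]; simp [hz])
        rcases hclass z hzf (hIB z hz) with h | h
        · have h2 : ¬ (z ≠ f ∧ ¬ r f z ∧ ∃ u, r f u ∧ r u z) := fun h' => h'.2.1 h
          have e1 : iN z = 1 := if_pos h
          have e2 : iG z = 0 := if_neg h2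
          rw [wt_in_feed r hasym h, e1, e2]
          norm_num
        · have := wt_le_one r z f
          have h2 : ¬ r f z := h.2.1
          have e1 : iN z = 0 := if_neg h2
          have e2 : iG z = 1 := if_pos h
          rw [e1, e2]
          linarith
      have h2 := sum_map_le _ _ I hpt
      have h3 : (I.map fun z => iG z - iN z).sum = (I.map iG).sum - (I.map iN).sum :=
        sum_map_sub iG iN I
      rw [h3] at h2
      have hsplit : (I.map φ).sum = (I.map iN).sum - (I.map iG).sum := sum_map_sub iN iG I
      rw [hsplit]
      linarith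
  -- convert to cardinalities
  have hLset : L.toFinset = univ.erase f := by
    ext v
    simp [hmem]
  have hcardN : (L.map iN).sum = (N1 r f).card := by
    simp only [iN]
    rw [list_indicator_sum _ L hnd, hLset]
    have : (univ.erase f).filter (fun z => r f z) = N1 r f := by
      ext v
      simp only [N1, mem_filter, mem_erase, mem_univ, true_and, and_true]
      constructor
      · exact fun h => h.2
      · intro h
        refine ⟨?_, h⟩
        rintro rfl
        exact hasym _ _ h h
    rw [this]
  have hcardG : (L.map iG).sum = (N2 r f).card := by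
    simp only [iG]
    rw [list_indicator_sum _ L hnd, hLset]
    have : (univ.erase f).filter (fun z => z ≠ f ∧ ¬ r f z ∧ ∃ u, r f u ∧ r u z) = N2 r f := by
      ext v
      simp only [N2, mem_filter, mem_erase, mem_univ, true_and, and_true]
      constructor
      · exact fun h => h.2
      · intro h
        exact ⟨h.1, h⟩
    rw [this]
  have hsplit : (L.map φ).sum = (L.map iN).sum - (L.map iG).sum := sum_map_sub iN iG L
  rw [hsplit, hcardN, hcardG] at hsum
  -- the allowance sum over `L` is the sum over far vertices
  have hfar : (L.map fun z => if InB r f z then ex z else 0).sum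
      = ∑ y ∈ far r f, ex y := by
    rw [← List.sum_toFinset _ hnd, hLset]
    rw [Finset.sum_ite]
    simp only [Finset.sum_const_zero, add_zero]
    apply Finset.sum_congr
    · ext y
      simp only [far, mem_filter, mem_erase, mem_univ, true_and, and_true]
      constructor
      · exact fun h => h.2
      · intro h
        exact ⟨h.1, h⟩
    · intro _ _
      rfl
  rw [hfar] at hsum
  have hcast : (∑ y ∈ far r f, ex y) = ((∑ y ∈ far r f, (badCount r f y - 1) : ℕ) : ℤ) := by
    simp [ex]
  rw [hcast] at hsum
  have : ((N1 r f).card : ℤ) ≤ (((N2 r f).card + ∑ y ∈ far r f, (badCount r f y - 1) : ℕ) : ℤ) := by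
    rw [Nat.cast_add]
    linarith
  exact_mod_cast this

/-- If each far vertex forms bad pairs with at most one out-neighbour then the conjecture holds. -/
theorem crux_free [Nonempty V] (r : V → V → Prop) [DecidableRel r]
    (hasym : ∀ a b, r a b → ¬ r b a)
    (h : ∀ f y x₁ x₂, InB r f y → r f x₁ → r f x₂ → BadTo r y x₁ → BadTo r y x₂ → x₁ = x₂) :
    ∃ f, (N1 r f).card ≤ (N2 r f).card := by
  classical
  obtain ⟨f, hf⟩ := excess_bound r hasym
  refine ⟨f, ?_⟩
  have h0 : ∑ y ∈ far r f, (badCount r f y - 1) = 0 := by
    apply Finset.sum_eq_zero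
    intro y hy
    have hy' : InB r f y := by
      simpa [far] using hy
    have : badCount r f y ≤ 1 := by
      unfold badCount
      apply Finset.card_le_one.mpr
      intro a ha b hb
      simp only [mem_filter, mem_univ, true_and] at ha hb
      exact h f y a b hy' ha.1 hb.1 ha.2 hb.2
    omega
  simpa [h0] using hf

/-- A bad pair forces an alternating four-cycle in the graph of non-adjacent pairs. -/
lemma badTo_witness (r : V → V → Prop) {f x y : V} (hfx : r f x) (hy : InB r f y)
    (hb : BadTo r y x) :
    ∃ g, f ≠ g ∧ ¬ r f g ∧ ¬ r g f ∧ r g y := by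
  obtain ⟨h1, h2, g, hgy, hgx⟩ := hb
  refine ⟨g, ?_, ?_, ?_, hgy⟩
  · rintro rfl
    exact hy.2.1 hgy
  · intro hfg
    exact hy.2.2 ⟨g, hfg, hgy⟩
  · intro hgf
    exact hgx.2.2 ⟨f, hgf, hfx⟩

/-- The missing graph has no alternating four-cycle: then there is a vertex as in the conjecture. -/
theorem threshold_case [Nonempty V] (r : V → V → Prop) [DecidableRel r]
    (hasym : ∀ a b, r a b → ¬ r b a)
    (hthr : ∀ a b c d : V, a ≠ b → ¬ r a b → ¬ r b a → c ≠ d → ¬ r c d → ¬ r d c →
      (r a c ∨ r c a) → (r b d ∨ r d b) → False) :
    ∃ v, (N1 r v).card ≤ (N2 r v).card := by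
  apply crux_free r hasym
  intro f y x₁ x₂ hy hx₁ _ hb₁ _
  exfalso
  obtain ⟨g, hfg, h1, h2, hgy⟩ := badTo_witness r hx₁ hy hb₁
  have hxy : x₁ ≠ y := by
    rintro rfl
    exact hy.2.1 hx₁
  exact hthr x₁ y f g hxy hb₁.1 hb₁.2.1 hfg h1 h2 (Or.inr hx₁) (Or.inr hgy)

/-- The purely graph-theoretic form of the criterion. -/
theorem no_crux_pattern [Nonempty V] (r : V → V → Prop) [DecidableRel r]
    (hasym : ∀ a b, r a b → ¬ r b a)
    (hC : ∀ f g x₁ x₂ y : V, x₁ ≠ x₂ →
      f ≠ g → ¬ r f g → ¬ r g f →
      x₁ ≠ y → ¬ r x₁ y → ¬ r y x₁ →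
      x₂ ≠ y → ¬ r x₂ y → ¬ r y x₂ →
      (r f x₁ ∨ r x₁ f) → (r f x₂ ∨ r x₂ f) → (r g y ∨ r y g) → False) :
    ∃ v, (N1 r v).card ≤ (N2 r v).card := by
  apply crux_free r hasym
  intro f y x₁ x₂ hy hx₁ hx₂ hb₁ hb₂
  by_contra hne
  obtain ⟨g, hfg, h1, h2, hgy⟩ := badTo_witness r hx₁ hy hb₁
  have hxy₁ : x₁ ≠ y := by
    rintro rfl
    exact hy.2.1 hx₁
  have hxy₂ : x₂ ≠ y := by
    rintro rfl
    exact hy.2.1 hx₂
  exact hC f g x₁ x₂ y hne hfg h1 h2 hxy₁ hb₁.1 hb₁.2.1 hxy₂ hb₂.1 hb₂.2.1
    (Or.inl hx₁) (Or.inl hx₂) (Or.inl hgy)

end Vale.Agent.Lib.P038
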