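import Mathlib
import Vale.Agent.Lib.P038.Defs
import Vale.Agent.Lib.P038.Additive
import Vale.Agent.Lib.P038.Cert

/-!
Oriented graphs whose missing graph is a disjoint union of stars have a vertex as in the conjecture.
-/

namespace Vale.Agent.Lib.P038

open Finset

variable {V : Type*} [Fintype V] [DecidableEq V]

/-- Distinct vertices joined by no arc. -/
def Miss (r : V → V → Prop) (a b : V) : Prop := a ≠ b ∧ ¬ r a b ∧ ¬ r b a

lemma Miss.symm {r : V → V → Prop} {a b : V} (h : Miss r a b) : Miss r b a :=
  ⟨h.1.symm, h.2.2, h.2.1⟩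

open scoped Classical in
/-- The partners of `a` towards which an orientation would hurt nobody. -/
noncomputable def safeSet (r : V → V → Prop) (a : V) : Finset V :=
  univ.filter fun l => Miss r a l ∧ ¬ Hurts r a l

open scoped Classical in
/-- The weight given to a safe orientation at `a`. -/
noncomputable def tw (r : V → V → Prop) (a b : V) : ℚ :=
  if b ∈ safeSet r a then 1 - 1 / ((safeSet r a).card : ℚ) else 0

open scoped Classical in
/-- The skew weight on pairs of vertices. -/
noncomputable def sw (r : V → V → Prop) (a b : V) : ℚ :=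
  if r a b then 1 else if r b a then -1 else tw r a b - tw r b a

lemma tw_nonneg (r : V → V → Prop) (a b : V) : 0 ≤ tw r a b := by
  classical
  unfold tw
  split_ifs with h
  · have h1 : 1 ≤ ((safeSet r a).card : ℚ) := by
      exact_mod_cast Finset.card_pos.mpr ⟨b, h⟩
    have h2 : 1 / ((safeSet r a).card : ℚ) ≤ 1 := by
      rw [div_le_one (by linarith)]
      exact h1
    linarith
  · exact le_rfl

lemma tw_lt_one (r : V → V → Prop) (a b : V) : tw r a b < 1 := by
  classical
  unfold tw
  split_ifs with h
  · have h1 : (0 : ℚ) < ((safeSet r a).card : ℚ) := by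
      exact_mod_cast Finset.card_pos.mpr ⟨b, h⟩
    have h2 : 0 < 1 / ((safeSet r a).card : ℚ) := by positivity
    linarith
  · norm_num

lemma sw_skew (r : V → V → Prop) (hasym : ∀ a b, r a b → ¬ r b a) (a b : V) :
    sw r a b = - sw r b a := by
  classical
  unfold sw
  by_cases h1 : r a b
  · have h2 := hasym a b h1
    simp [h1, h2]
  · by_cases h2 : r b a
    · simp [h1, h2]
    · simp only [h1, h2, if_false]
      ring

lemma sw_le_one (r : V → V → Prop) (a b : V) : sw r a b ≤ 1 := by
  classical
  unfold sw
  split_ifs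
  · exact le_rfl
  · norm_num
  · have h1 := tw_lt_one r a b
    have h2 := tw_nonneg r b a
    linarith

lemma neg_one_le_sw (r : V → V → Prop) (hasym : ∀ a b, r a b → ¬ r b a) (a b : V) :
    -1 ≤ sw r a b := by
  have h1 := sw_le_one r b a
  rw [sw_skew r hasym a b]
  linarith

lemma sw_of_r (r : V → V → Prop) {a b : V} (h : r a b) : sw r a b = 1 := by
  classical
  simp [sw, h]

lemma sw_of_r' (r : V → V → Prop) (hasym : ∀ a b, r a b → ¬ r b a) {a b : V} (h : r b a) :
    sw r a b = -1 := by
  classical
  have := hasym b a h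
  simp [sw, h, this]

lemma sw_of_miss (r : V → V → Prop) {a b : V} (h : Miss r a b) :
    sw r a b = tw r a b - tw r b a := by
  classical
  simp [sw, h.2.1, h.2.2]

/-- Every missing pair has an endpoint with no other missing partner. -/
def StarForest (r : V → V → Prop) : Prop :=
  ∀ a b, Miss r a b → (∀ d, Miss r a d → d = b) ∨ (∀ d, Miss r b d → d = a)

section feed

variable (r : V → V → Prop) [DecidableRel r]

/-- The sum controlling the pull of a far vertex `x` over the out-neighbours of `f`. -/
noncomputable def axx (f x : V) : ℚ := ∑ a ∈ N1 r f, (1 + sw r a x)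

open scoped Classical in
/-- The far vertices with a large pull. -/
noncomputable def bigU (f : V) : Finset V := univ.filter fun x => InB r f x ∧ 1 < axx r f x

/-- A witness for a far vertex. -/
def WitP (f x g : V) : Prop :=
  r g x ∧ ∃ a, r f a ∧ Miss r a x ∧ (∀ d, Miss r a d → d = x) ∧ InB r g a

open scoped Classical in
/-- A chosen witness. -/
noncomputable def wit (f x : V) : V :=
  if h : ∃ g, WitP r f x g then h.choose else x

open scoped Classical in
/-- The chosen witnesses of the far vertices with a large pull. -/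
noncomputable def gam (f : V) : Finset V := (bigU r f).image (wit r f)

variable {r}

lemma partner_cases (hasym : ∀ a b, r a b → ¬ r b a) {f a x : V} (ha : r f a) (hx : InB r f x) :
    ¬ r a x ∧ a ≠ x ∧ (r x a ∨ Miss r a x) := by
  have h1 : ¬ r a x := fun h => hx.2.2 ⟨a, ha, h⟩
  have h2 : a ≠ x := by
    rintro rfl
    exact hx.2.1 ha
  refine ⟨h1, h2, ?_⟩
  by_cases h3 : r x a
  · exact Or.inl h3
  · exact Or.inr ⟨h2, h1, h3⟩

lemma not_safe_of_feed {f a x : V} (ha : r f a) (hx : InB r f x) : x ∉ safeSet r a := by
  classical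
  intro h
  have h' := (Finset.mem_filter.mp h).2.2
  exact h' ⟨f, ha, hx⟩

lemma tw_eq_zero_of_not_mem {a x : V} (h : x ∉ safeSet r a) : tw r a x = 0 := by
  classical
  simp [tw, h]

/-- The value of a term in `axx`. -/
lemma axx_term (hasym : ∀ a b, r a b → ¬ r b a) {f a x : V} (ha : r f a) (hx : InB r f x) :
    1 + sw r a x = if r x a then 0 else 1 - tw r x a := by
  classical
  obtain ⟨_, _, h3⟩ := partner_cases hasym ha hx
  by_cases h : r x a
  · rw [if_pos h, sw_of_r' r hasym h]
    norm_num
  · rw [if_neg h]
    rcases h3 with h3 | h3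
    · exact absurd h3 h
    · rw [sw_of_miss r h3, tw_eq_zero_of_not_mem (not_safe_of_feed ha hx)]
      ring

lemma axx_term_nonneg (hasym : ∀ a b, r a b → ¬ r b a) (a x : V) : 0 ≤ 1 + sw r a x := by
  have := neg_one_le_sw r hasym a x
  linarith

/-- A large pull forces an unsafe partner among the out-neighbours, and a second partner. -/
lemma exists_unsafe (hasym : ∀ a b, r a b → ¬ r b a) {f x : V} (hx : InB r f x)
    (hU : 1 < axx r f x) :
    ∃ a a', r f a ∧ r f a' ∧ a ≠ a' ∧ Miss r a x ∧ Miss r a' x ∧ Hurts r x a := by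
  classical
  set T : Finset V := (N1 r f).filter fun a => Miss r a x with hT
  have hmemT : ∀ a, a ∈ T ↔ r f a ∧ Miss r a x := by
    intro a
    simp [hT, N1]
  -- terms outside `T` vanish
  have hsplit : axx r f x = ∑ a ∈ T, (1 - tw r x a) := by
    unfold axx
    rw [hT, Finset.sum_filter]
    apply Finset.sum_congr rfl
    intro a ha
    have ha' : r f a := (Finset.mem_filter.mp ha).2
    obtain ⟨_, _, h3⟩ := partner_cases hasym ha' hx
    rw [axx_term hasym ha' hx]
    by_cases h : r x a
    · have hm : ¬ Miss r a x := fun hm => hm.2.2 h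
      simp [h, hm]
    · have hm : Miss r a x := by
        rcases h3 with h3 | h3
        · exact absurd h3 h
        · exact h3
      simp [h, hm]
  -- at least two partners
  have hcard : 2 ≤ T.card := by
    by_contra hlt
    have hle : T.card ≤ 1 := by omega
    have hle' : ∑ a ∈ T, (1 - tw r x a) ≤ ∑ _a ∈ T, (1 : ℚ) := by
      apply Finset.sum_le_sum
      intro a _
      have := tw_nonneg r x a
      linarith
    have h1 : ∑ _a ∈ T, (1 : ℚ) = T.card := by simp
    have h2 : (T.card : ℚ) ≤ 1 := by exact_mod_cast hle
    rw [hsplit] at hU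
    linarith
  -- some partner is unsafe
  have hunsafe : ∃ a ∈ T, a ∉ safeSet r x := by
    by_contra hall
    push_neg at hall
    have hsub : T ⊆ safeSet r x := fun a ha => hall a ha
    have hS : 0 < ((safeSet r x).card : ℚ) := by
      have : 0 < (safeSet r x).card := by
        have h2 : 0 < T.card := by omega
        exact lt_of_lt_of_le h2 (Finset.card_le_card hsub)
      exact_mod_cast this
    have hle : ∑ a ∈ T, (1 - tw r x a) ≤ ∑ a ∈ safeSet r x, (1 - tw r x a) := by
      apply Finset.sum_le_sum_of_subset_of_nonneg hsub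
      intro a _ _
      have := tw_lt_one r x a
      linarith
    have heq : ∑ a ∈ safeSet r x, (1 - tw r x a) = 1 := by
      have : ∀ a ∈ safeSet r x, 1 - tw r x a = 1 / ((safeSet r x).card : ℚ) := by
        intro a ha
        simp [tw, ha]
      rw [Finset.sum_congr rfl this]
      simp only [Finset.sum_const, nsmul_eq_mul]
      field_simp
    rw [hsplit] at hU
    linarith
  obtain ⟨a, haT, haS⟩ := hunsafe
  obtain ⟨a', ha'T, hne⟩ : ∃ a' ∈ T, a' ≠ a := by
    obtain ⟨b, hb, c, hc, hbc⟩ := Finset.one_lt_card.mp (by omega : 1 < T.card)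
    by_cases hba : b = a
    · exact ⟨c, hc, fun h => hbc (hba.trans h.symm)⟩
    · exact ⟨b, hb, hba⟩
  have h1 := (hmemT a).mp haT
  have h2 := (hmemT a').mp ha'T
  refine ⟨a, a', h1.1, h2.1, hne.symm, h1.2, h2.2, ?_⟩
  by_contra hnh
  apply haS
  exact Finset.mem_filter.mpr ⟨Finset.mem_univ _, h1.2.symm, hnh⟩

lemma exists_wit (hasym : ∀ a b, r a b → ¬ r b a) (hs : StarForest r) {f x : V} (hx : InB r f x)
    (hU : 1 < axx r f x) : ∃ g, WitP r f x g := by
  obtain ⟨a, a', ha, _, hne, hm, hm', g, hgx, hga⟩ := exists_unsafe hasym hx hU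
  refine ⟨g, hgx, a, ha, hm, ?_, hga⟩
  rcases hs a x hm with h | h
  · exact h
  · exfalso
    have h1 := h a' hm'.symm
    exact hne h1.symm

lemma wit_spec (hasym : ∀ a b, r a b → ¬ r b a) (hs : StarForest r) {f x : V} (hx : InB r f x)
    (hU : 1 < axx r f x) : WitP r f x (wit r f x) := by
  classical
  have h := exists_wit hasym hs hx hU
  unfold wit
  rw [dif_pos h]
  exact h.choose_spec

lemma witP_miss (hasym : ∀ a b, r a b → ¬ r b a) {f x g : V} (hx : InB r f x)
    (hw : WitP r f x g) : Miss r g f := by
  obtain ⟨hgx, a, ha, _, _, hga⟩ := hw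
  refine ⟨?_, ?_, ?_⟩
  · rintro rfl
    exact hx.2.1 hgx
  · intro h
    exact hga.2.2 ⟨f, h, ha⟩
  · intro h
    exact hx.2.2 ⟨g, h, hgx⟩

lemma witP_mem_N2 (hasym : ∀ a b, r a b → ¬ r b a) {f x g : V} (hx : InB r f x)
    (hw : WitP r f x g) : g ∈ N2 r f := by
  have hm := witP_miss hasym hx hw
  obtain ⟨hgx, a, ha, hax, hleaf, hga⟩ := hw
  have hag : a ≠ g := by
    rintro rfl
    exact hm.2.2 ha
  have hgnex : g ≠ x := by
    rintro rfl
    exact hasym _ _ hgx hgx
  have h1 : r a g := by
    by_contra hn
    have : Miss r a g := ⟨hag, hn, hga.2.1⟩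
    exact hgnex (hleaf g this)
  simp only [N2, mem_filter, mem_univ, true_and]
  exact ⟨hm.1, hm.2.2, a, ha, h1⟩

/-- A far vertex that the witness points to is the vertex witnessed. -/
lemma witP_unique (hasym : ∀ a b, r a b → ¬ r b a) {f x g y : V} (hy : InB r f y)
    (hw : WitP r f x g) (hgy : r g y) : y = x := by
  obtain ⟨_, a, ha, _, hleaf, hga⟩ := hw
  obtain ⟨h1, h2, _⟩ := partner_cases hasym ha hy
  have h3 : ¬ r y a := fun h => hga.2.2 ⟨y, hgy, h⟩
  exact hleaf y ⟨h2, h1, h3⟩

lemma wit_inj (hasym : ∀ a b, r a b → ¬ r b a) (hs : StarForest r) (f : V) :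
    Set.InjOn (wit r f) (bigU r f : Set V) := by
  classical
  intro x hx x' hx' he
  have hx1 := (Finset.mem_filter.mp (Finset.mem_coe.mp hx)).2
  have hx2 := (Finset.mem_filter.mp (Finset.mem_coe.mp hx')).2
  have w1 := wit_spec hasym hs hx1.1 hx1.2
  have w2 := wit_spec hasym hs hx2.1 hx2.2
  rw [← he] at w2
  exact (witP_unique hasym hx2.1 w1 w2.1).symm

lemma gam_spec (hasym : ∀ a b, r a b → ¬ r b a) (hs : StarForest r) {f g : V} (hg : g ∈ gam r f) :
    ∃ x, InB r f x ∧ 1 < axx r f x ∧ WitP r f x g := by
  classical
  obtain ⟨x, hx, rfl⟩ := Finset.mem_image.mp hg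
  have hx1 := (Finset.mem_filter.mp hx).2
  exact ⟨x, hx1.1, hx1.2, wit_spec hasym hs hx1.1 hx1.2⟩

lemma gam_subset (hasym : ∀ a b, r a b → ¬ r b a) (hs : StarForest r) (f : V) :
    gam r f ⊆ N2 r f := by
  intro g hg
  obtain ⟨x, hx, _, hw⟩ := gam_spec hasym hs hg
  exact witP_mem_N2 hasym hx hw

lemma gam_card (hasym : ∀ a b, r a b → ¬ r b a) (hs : StarForest r) (f : V) :
    (gam r f).card = (bigU r f).card := by
  classical
  exact Finset.card_image_of_injOn (wit_inj hasym hs f)

lemma sw_le_tw {a b : V} (hasym : ∀ a b, r a b → ¬ r b a) (h : Miss r a b) :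
    sw r a b ≤ tw r a b := by
  rw [sw_of_miss r h]
  have := tw_nonneg r b a
  linarith

lemma max_sw_lt_one {a b : V} (hasym : ∀ a b, r a b → ¬ r b a) (h : Miss r a b) :
    max (sw r a b) 0 < 1 := by
  have h1 := sw_le_tw hasym h
  have h2 := tw_lt_one r a b
  exact max_lt (by linarith) (by norm_num)

/-- The total over the witnesses towards `f` stays below one. -/
lemma gam_sum_feed (hasym : ∀ a b, r a b → ¬ r b a) (hs : StarForest r) (f : V) :
    ∑ g ∈ gam r f, max (sw r g f) 0 < 1 := by
  classical
  have hmiss : ∀ g ∈ gam r f, Miss r g f := by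
    intro g hg
    obtain ⟨x, hx, _, hw⟩ := gam_spec hasym hs hg
    exact witP_miss hasym hx hw
  by_cases htwo : ∃ g₁ ∈ gam r f, ∃ g₂ ∈ gam r f, g₁ ≠ g₂
  · obtain ⟨g₁, h1, g₂, h2, hne⟩ := htwo
    have hzero : ∀ g ∈ gam r f, max (sw r g f) 0 = 0 := by
      intro g hg
      have hm := hmiss g hg
      have hleaf : ∀ d, Miss r g d → d = f := by
        rcases hs g f hm with h | h
        · exact h
        · exfalso
          have e1 := h g₁ (hmiss g₁ h1).symm
          have e2 := h g₂ (hmiss g₂ h2).symm
          exact hne (e1.trans e2.symm)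
      have ht : tw r g f = 0 := by
        by_cases hmem : f ∈ safeSet r g
        · have hsing : safeSet r g = {f} := by
            apply Finset.eq_singleton_iff_unique_mem.mpr
            refine ⟨hmem, ?_⟩
            intro d hd
            exact hleaf d (Finset.mem_filter.mp hd).2.1
          simp [tw, hsing]
        · exact tw_eq_zero_of_not_mem hmem
      have := sw_le_tw hasym hm
      rw [ht] at this
      exact max_eq_right this
    rw [Finset.sum_eq_zero hzero]
    norm_num
  · push_neg at htwo
    by_cases hne : (gam r f).Nonempty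
    · obtain ⟨g₀, hg₀⟩ := hne
      have hsing : gam r f = {g₀} := by
        apply Finset.eq_singleton_iff_unique_mem.mpr
        exact ⟨hg₀, fun d hd => htwo d hd g₀ hg₀⟩
      rw [hsing, Finset.sum_singleton]
      exact max_sw_lt_one hasym (hmiss g₀ hg₀)
    · rw [Finset.not_nonempty_iff_eq_empty] at hne
      simp [hne]

/-- The total for a far vertex outside `bigU` is at most one. -/
lemma gam_sum_far (hasym : ∀ a b, r a b → ¬ r b a) (hs : StarForest r) {f x : V} (hx : InB r f x)
    (hnU : ¬ 1 < axx r f x) : axx r f x + ∑ g ∈ gam r f, max (sw r g x) 0 ≤ 1 := by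
  classical
  have hprops : ∀ g ∈ gam r f, Miss r g f ∧ (r x g ∨ Miss r g x) := by
    intro g hg
    obtain ⟨u, hu, hU, hw⟩ := gam_spec hasym hs hg
    have hm := witP_miss hasym hu hw
    refine ⟨hm, ?_⟩
    have hng : ¬ r g x := by
      intro h
      have e := witP_unique hasym hx hw h
      subst e
      exact hnU hU
    by_cases h1 : r x g
    · exact Or.inl h1
    · right
      refine ⟨?_, hng, h1⟩
      have hgN := witP_mem_N2 hasym hu hw
      rintro rfl
      simp only [N2, mem_filter, mem_univ, true_and] at hgN
      exact hx.2.2 hgN.2.2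
  by_cases hex : ∃ g₀ ∈ gam r f, Miss r g₀ x
  · obtain ⟨g₀, hg₀, hm₀⟩ := hex
    have hm₀f := (hprops g₀ hg₀).1
    have hleaf : ∀ d, Miss r x d → d = g₀ := by
      rcases hs g₀ x hm₀ with h | h
      · exfalso
        exact hx.1 (h f hm₀f).symm
      · exact h
    have hA : axx r f x = 0 := by
      unfold axx
      apply Finset.sum_eq_zero
      intro a ha
      have ha' : r f a := (Finset.mem_filter.mp ha).2
      obtain ⟨_, _, h3⟩ := partner_cases hasym ha' hx
      rcases h3 with h3 | h3
      · rw [sw_of_r' r hasym h3]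
        norm_num
      · exfalso
        have e := hleaf a h3.symm
        subst e
        exact hm₀f.2.2 ha'
    have hS : ∑ g ∈ gam r f, max (sw r g x) 0 = max (sw r g₀ x) 0 := by
      apply Finset.sum_eq_single_of_mem g₀ hg₀
      intro g hg hne
      rcases (hprops g hg).2 with h | h
      · rw [sw_of_r' r hasym h]
        norm_num
      · exfalso
        exact hne (hleaf g h.symm)
    rw [hA, hS]
    have := max_sw_lt_one hasym hm₀
    linarith
  · push_neg at hex
    have hS : ∑ g ∈ gam r f, max (sw r g x) 0 = 0 := by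
      apply Finset.sum_eq_zero
      intro g hg
      rcases (hprops g hg).2 with h | h
      · rw [sw_of_r' r hasym h]
        norm_num
      · exact absurd h (hex g hg)
    rw [hS]
    linarith

/-- The sum of the excess function over any set. -/
lemma sum_e_le (r : V → V → Prop) [DecidableRel r] (hasym : ∀ a b, r a b → ¬ r b a)
    (f τ : V) (s : Finset V) :
    ∑ a ∈ s, ((if r f a then 1 + sw r a τ else 0)
        + (if a ∈ gam r f then max (sw r a τ) 0 else 0))
      ≤ axx r f τ + ∑ g ∈ gam r f, max (sw r g τ) 0 := by
  classical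
  have hnn : ∀ a, 0 ≤ (if r f a then 1 + sw r a τ else 0)
      + (if a ∈ gam r f then max (sw r a τ) 0 else (0 : ℚ)) := by
    intro a
    have h1 : 0 ≤ (if r f a then 1 + sw r a τ else 0) := by
      split_ifs
      · exact axx_term_nonneg hasym a τ
      · exact le_rfl
    have h2 : 0 ≤ (if a ∈ gam r f then max (sw r a τ) 0 else (0 : ℚ)) := by
      split_ifs
      · exact le_max_right _ _
      · exact le_rfl
    exact add_nonneg h1 h2
  calc ∑ a ∈ s, ((if r f a then 1 + sw r a τ else 0)
        + (if a ∈ gam r f then max (sw r a τ) 0 else 0))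
      ≤ ∑ a, ((if r f a then 1 + sw r a τ else 0)
        + (if a ∈ gam r f then max (sw r a τ) 0 else 0)) :=
        Finset.sum_le_univ_sum_of_nonneg hnn
    _ = axx r f τ + ∑ g ∈ gam r f, max (sw r g τ) 0 := by
        rw [Finset.sum_add_distrib]
        congr 1
        · unfold axx N1
          rw [Finset.sum_filter]
        · rw [← Finset.sum_filter]
          apply Finset.sum_congr
          · ext v
            simp
          · intro _ _
            rfl

end feed

/-- Oriented graphs missing a star forest. -/
theorem star_forest_case [Nonempty V] (r : V → V → Prop) [DecidableRel r]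
    (hasym : ∀ a b, r a b → ¬ r b a) (hs : StarForest r) :
    ∃ v, (N1 r v).card ≤ (N2 r v).card := by
  classical
  obtain ⟨L₀, f, hnd, hmem, hmax⟩ := exists_max_order (sw r)
  refine ⟨f, ?_⟩
  have hirr : ∀ a, ¬ r a a := fun a h => hasym a a h h
  let iN : V → ℤ := fun a => if r f a then 1 else 0
  let iG : V → ℤ := fun a => if a ∈ N2 r f then 1 else 0
  let iΓ : V → ℤ := fun a => if a ∈ gam r f then 1 else 0
  let iU : V → ℤ := fun a => if a ∈ bigU r f then 1 else 0
  let val : V → ℤ := fun a => iN a - iG a + iΓ a - iU a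
  let p : V → Bool := fun a => decide (InB r f a ∧ a ∉ bigU r f)
  let e : V → V → ℚ := fun a τ =>
    (if r f a then 1 + sw r a τ else 0) + (if a ∈ gam r f then max (sw r a τ) 0 else 0)
  have hsub := gam_subset hasym hs f
  -- classification of vertices
  have hNnotG : ∀ a, r f a → a ∉ N2 r f := by
    intro a ha h
    simp only [N2, mem_filter, mem_univ, true_and] at h
    exact h.2.1 ha
  have hBnotG : ∀ a, InB r f a → a ∉ N2 r f := by
    intro a ha h
    simp only [N2, mem_filter, mem_univ, true_and] at h
    exact ha.2.2 h.2.2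
  have hUB : ∀ a, a ∈ bigU r f → InB r f a := fun a ha => (Finset.mem_filter.mp ha).2.1
  have hclass : ∀ a, a ≠ f → r f a ∨ a ∈ N2 r f ∨ InB r f a := by
    intro a ha
    by_cases h1 : r f a
    · exact Or.inl h1
    · by_cases h2 : ∃ m, r f m ∧ r m a
      · right; left
        simp only [N2, mem_filter, mem_univ, true_and]
        exact ⟨ha, h1, h2⟩
      · right; right
        exact ⟨ha, h1, h2⟩
  have hcert : (L₀.map val).sum ≤ 0 := by
    apply cert_bound (sw r) (sw_skew r hasym) L₀ f hnd hmax p val e
    · -- nonnegativity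
      intro a τ
      have h1 : 0 ≤ (if r f a then 1 + sw r a τ else 0) := by
        split_ifs
        · exact axx_term_nonneg hasym a τ
        · exact le_rfl
      have h2 : 0 ≤ (if a ∈ gam r f then max (sw r a τ) 0 else (0 : ℚ)) := by
        split_ifs
        · exact le_max_right _ _
        · exact le_rfl
      exact add_nonneg h1 h2
    · -- values vanish on moved vertices
      intro a hpa
      have hpa' : InB r f a ∧ a ∉ bigU r f := by simpa [p] using hpa
      have h1 : ¬ r f a := hpa'.1.2.1
      have h2 := hBnotG a hpa'.1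
      have h3 : a ∉ gam r f := fun h => h2 (hsub h)
      simp [val, iN, iG, iΓ, iU, h1, h2, h3, hpa'.2]
    · -- the pointwise bound
      intro a τ ha hpa _
      have hne : a ≠ f := (hmem a).mp ha
      have hsw := sw_le_one r a τ
      have hnn := axx_term_nonneg hasym a τ
      rcases hclass a hne with h | h | h
      · -- out-neighbours
        have h2 := hNnotG a h
        have h3 : a ∉ gam r f := fun h' => h2 (hsub h')
        have h4 : a ∉ bigU r f := fun h' => (hUB a h').2.1 h
        simp only [val, iN, iG, iΓ, iU, e, h, h2, h3, h4, if_true, if_false]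
        push_cast
        linarith
      · -- second neighbours
        have h1 : ¬ r f a := by
          simp only [N2, mem_filter, mem_univ, true_and] at h
          exact h.2.1
        have h4 : a ∉ bigU r f := fun h' => hBnotG a (hUB a h') h
        by_cases h3 : a ∈ gam r f
        · simp only [val, iN, iG, iΓ, iU, e, h, h1, h3, h4, if_true, if_false]
          have := le_max_left (sw r a τ) 0
          push_cast
          linarith
        · have hm : (0 : ℚ) ≤ 0 := le_rfl
          simp only [val, iN, iG, iΓ, iU, e, h, h1, h3, h4, if_true, if_false]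
          push_cast
          linarith
      · -- far vertices that are not moved
        have h4 : a ∈ bigU r f := by
          by_contra h4
          have : p a = true := by simp [p, h, h4]
          rw [this] at hpa
          exact Bool.noConfusion hpa
        have h1 : ¬ r f a := h.2.1
        have h2 := hBnotG a h
        have h3 : a ∉ gam r f := fun h' => h2 (hsub h')
        simp only [val, iN, iG, iΓ, iU, e, h1, h2, h3, h4, if_true, if_false]
        push_cast
        linarith
    · -- sum for a moved vertex
      intro x hpx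
      have hpx' : InB r f x ∧ x ∉ bigU r f := by simpa [p] using hpx
      have hnU : ¬ 1 < axx r f x := by
        intro h
        exact hpx'.2 (Finset.mem_filter.mpr ⟨Finset.mem_univ _, hpx'.1, h⟩)
      have h1 := gam_sum_far hasym hs hpx'.1 hnU
      refine le_trans ?_ h1
      exact sum_e_le r hasym f x L₀.toFinset
    · -- sum for the feed
      have h1 := gam_sum_feed hasym hs f
      have hA : axx r f f = 0 := by
        unfold axx
        apply Finset.sum_eq_zero
        intro a ha
        have ha' : r f a := (Finset.mem_filter.mp ha).2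
        rw [sw_of_r' r hasym ha']
        norm_num
      have h2 := sum_e_le r hasym f f L₀.toFinset
      rw [hA, zero_add] at h2
      exact lt_of_le_of_lt h2 h1
  -- convert to cardinalities
  have hLset : L₀.toFinset = univ.erase f := by
    ext v
    simp [hmem]
  have hsumval : (L₀.map val).sum = ∑ a ∈ univ.erase f, val a := by
    rw [← hLset, List.sum_toFinset _ hnd]
  have hf1 : ¬ r f f := hirr f
  have hf2 : f ∉ N2 r f := by
    intro h
    simp only [N2, mem_filter, mem_univ, true_and] at h
    exact h.1 rfl
  have hf3 : f ∉ gam r f := fun h => hf2 (hsub h)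
  have hf4 : f ∉ bigU r f := fun h => (hUB f h).1 rfl
  have hvalf : val f = 0 := by
    simp [val, iN, iG, iΓ, iU, hf1, hf2, hf3, hf4]
  have hsumval2 : ∑ a ∈ univ.erase f, val a = ∑ a, val a := by
    rw [← Finset.add_sum_erase univ val (Finset.mem_univ f), hvalf, zero_add]
  have hcards : ∑ a, val a = ((N1 r f).card : ℤ) - (N2 r f).card
      + (gam r f).card - (bigU r f).card := by
    simp only [val, Finset.sum_sub_distrib, Finset.sum_add_distrib]
    have e1 : ∑ a, iN a = ((N1 r f).card : ℤ) := by
      simp only [iN, N1, Finset.sum_boole, Nat.cast_inj]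
    have e2 : ∑ a, iG a = ((N2 r f).card : ℤ) := by
      simp only [iG, Finset.sum_boole, Nat.cast_inj]
      congr 1
      ext v
      simp
    have e3 : ∑ a, iΓ a = ((gam r f).card : ℤ) := by
      simp only [iΓ, Finset.sum_boole, Nat.cast_inj]
      congr 1
      ext v
      simp
    have e4 : ∑ a, iU a = ((bigU r f).card : ℤ) := by
      simp only [iU, Finset.sum_boole, Nat.cast_inj]
      congr 1
      ext v
      simp
    rw [e1, e2, e3, e4]
  have hg := gam_card hasym hs f
  rw [hsumval, hsumval2, hcards, hg] at hcert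
  have : ((N1 r f).card : ℤ) ≤ (N2 r f).card := by linarith
  exact_mod_cast this

end Vale.Agent.Lib.P038
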